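import Mathlib.Analysis.SpecialFunctions.SmoothTransition
import Mathlib.Analysis.SpecialFunctions.Trigonometric.Basic

open Filter Topology Set

namespace Vale.Agent.P159.T1.D.H612

lemma exists_alpha {K : Set ℝ} (hK : IsClosed K) (h : K ⊆ Ioo (-Real.pi) Real.pi) :
    ∃ α : ℝ, 0 < α ∧ α ≤ Real.pi / 8 ∧ K ⊆ Icc (-Real.pi + α) (Real.pi - α) := by
  have hp := Real.pi_pos
  have hc : IsCompact K := Metric.isCompact_of_isClosed_isBounded hK
    ((Metric.isBounded_Ioo _ _).subset h)
  rcases K.eq_empty_or_nonempty with rfl | hne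
  · exact ⟨Real.pi / 8, by positivity, le_rfl, empty_subset _⟩
  · obtain ⟨x, hx, hmin⟩ := hc.exists_isMinOn hne
      (continuous_const.sub continuous_abs : Continuous fun θ : ℝ => Real.pi - |θ|).continuousOn
    have hpos : 0 < Real.pi - |x| := by
      have h1 := h hx
      rw [sub_pos, abs_lt]
      exact ⟨h1.1, h1.2⟩
    refine ⟨min (Real.pi / 8) (Real.pi - |x|), lt_min (by positivity) hpos, min_le_left _ _,
      fun y hy => ?_⟩
    have h2 : Real.pi - |x| ≤ Real.pi - |y| := hmin hy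
    have h3 := min_le_right (Real.pi / 8) (Real.pi - |x|)
    have h4 := abs_le.1 (le_refl |y|)
    constructor <;> linarith [h4.1, h4.2]

/-- smooth step at `c` -/
noncomputable def st (c θ : ℝ) : ℝ := Real.smoothTransition ((θ - c) / (Real.pi / 4) + 1 / 2)

lemma st_contDiff (c : ℝ) : ContDiff ℝ 2 (st c) := by
  unfold st
  refine Real.smoothTransition.contDiff.comp ?_
  fun_prop

lemma st_zero {c θ : ℝ} (h : θ ≤ c - Real.pi / 8) : st c θ = 0 := by
  have hp := Real.pi_pos
  refine Real.smoothTransition.zero_of_nonpos ?_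
  have : (θ - c) / (Real.pi / 4) ≤ -(1 / 2) := by
    rw [div_le_iff₀ (by positivity)]
    linarith
  linarith

lemma st_one {c θ : ℝ} (h : c + Real.pi / 8 ≤ θ) : st c θ = 1 := by
  have hp := Real.pi_pos
  refine Real.smoothTransition.one_of_one_le ?_
  have : 1 / 2 ≤ (θ - c) / (Real.pi / 4) := by
    rw [le_div_iff₀ (by positivity)]
    linarith
  linarith

/-- the support of a product -/
lemma tsup {u v : ℝ → ℝ} {a b c d : ℝ} (hu : tsupport u ⊆ Icc a b)
    (h1 : ∀ θ, θ ≤ c → v θ = 0) (h2 : ∀ θ, d ≤ θ → v θ = 0) :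
    tsupport (fun θ => u θ * v θ) ⊆ Icc (max a c) (min b d) := by
  refine closure_minimal (fun θ hθ => ?_) isClosed_Icc
  have h3 : u θ ≠ 0 := fun h => hθ (by simp [h])
  have h4 : v θ ≠ 0 := fun h => hθ (by simp [h])
  have h5 := hu (subset_tsupport _ h3)
  refine ⟨max_le h5.1 ?_, le_min h5.2 ?_⟩
  · by_contra hc
    exact h4 (h1 θ (not_le.1 hc).le)
  · by_contra hc
    exact h4 (h2 θ (not_le.1 hc).le)

theorem polE (u : ℝ → ℝ) (hu : ContDiff ℝ 2 u) (hs : tsupport u ⊆ Ioo (-Real.pi) Real.pi) :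
    ∃ (w : Fin 5 → ℝ → ℝ) (α : ℝ), 0 < α ∧ (∀ i, ContDiff ℝ 2 (w i)) ∧
      (∀ θ, u θ = ∑ i, w i θ) ∧
      tsupport (w 0) ⊆ Icc (Real.pi / 2 + α) (Real.pi - α) ∧
      tsupport (w 1) ⊆ Icc α (Real.pi - α) ∧
      tsupport (w 2) ⊆ Icc (-(Real.pi / 2) + α) (Real.pi / 2 - α) ∧
      tsupport (w 3) ⊆ Icc (-Real.pi + α) (-α) ∧
      tsupport (w 4) ⊆ Icc (-Real.pi + α) (-(Real.pi / 2) - α) := by
  have hp := Real.pi_pos
  obtain ⟨α, h0, h8, hK⟩ := exists_alpha (isClosed_tsupport u) hs
  set v : Fin 5 → ℝ → ℝ := ![fun θ => st (3 * Real.pi / 4) θ,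
    fun θ => st (Real.pi / 4) θ - st (3 * Real.pi / 4) θ,
    fun θ => st (-(Real.pi / 4)) θ - st (Real.pi / 4) θ,
    fun θ => st (-(3 * Real.pi / 4)) θ - st (-(Real.pi / 4)) θ,
    fun θ => 1 - st (-(3 * Real.pi / 4)) θ] with hv
  have hvc : ∀ i, ContDiff ℝ 2 (v i) := by
    intro i
    fin_cases i
    · exact st_contDiff _
    · exact (st_contDiff _).sub (st_contDiff _)
    · exact (st_contDiff _).sub (st_contDiff _)
    · exact (st_contDiff _).sub (st_contDiff _)
    · exact contDiff_const.sub (st_contDiff _)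
  refine ⟨fun i θ => u θ * v i θ, α, h0, fun i => hu.mul (hvc i), fun θ => ?_, ?_, ?_, ?_, ?_, ?_⟩
  · rw [← Finset.mul_sum]
    have : ∑ i, v i θ = 1 := by
      simp only [hv, Fin.sum_univ_five, Matrix.cons_val_zero, Matrix.cons_val_one,
        Matrix.cons_val]
      ring
    rw [this, mul_one]
  · have h1 : ∀ θ, θ ≤ 5 * Real.pi / 8 → v 0 θ = 0 := fun θ h => st_zero (by linarith)
    refine closure_minimal (fun θ hθ => ?_) isClosed_Icc
    have h3 : u θ ≠ 0 := fun h => hθ (by simp [h])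
    have h5 := hK (subset_tsupport _ h3)
    refine ⟨?_, h5.2⟩
    by_contra hc
    exact hθ (by
      change u θ * v 0 θ = 0
      rw [h1 θ (by linarith), mul_zero])
  · refine (tsup (v := v 1) (c := Real.pi / 8) (d := 7 * Real.pi / 8) hK
      (fun θ h => ?_) fun θ h => ?_).trans (Icc_subset_Icc ?_ (min_le_left _ _))
    · change st (Real.pi / 4) θ - st (3 * Real.pi / 4) θ = 0
      rw [st_zero (by linarith), st_zero (by linarith), sub_zero]
    · change st (Real.pi / 4) θ - st (3 * Real.pi / 4) θ = 0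
      rw [st_one (by linarith), st_one (by linarith), sub_self]
    · exact h8.trans (le_max_right _ _)
  · refine (tsup (v := v 2) (c := -(3 * Real.pi / 8)) (d := 3 * Real.pi / 8) hK
      (fun θ h => ?_) fun θ h => ?_).trans (Icc_subset_Icc ?_ ?_)
    · change st (-(Real.pi / 4)) θ - st (Real.pi / 4) θ = 0
      rw [st_zero (by linarith), st_zero (by linarith), sub_zero]
    · change st (-(Real.pi / 4)) θ - st (Real.pi / 4) θ = 0
      rw [st_one (by linarith), st_one (by linarith), sub_self]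
    · exact le_trans (by linarith) (le_max_right _ _)
    · exact le_trans (min_le_right _ _) (by linarith)
  · refine (tsup (v := v 3) (c := -(7 * Real.pi / 8)) (d := -(Real.pi / 8)) hK
      (fun θ h => ?_) fun θ h => ?_).trans (Icc_subset_Icc (le_max_left _ _) ?_)
    · change st (-(3 * Real.pi / 4)) θ - st (-(Real.pi / 4)) θ = 0
      rw [st_zero (by linarith), st_zero (by linarith), sub_zero]
    · change st (-(3 * Real.pi / 4)) θ - st (-(Real.pi / 4)) θ = 0
      rw [st_one (by linarith), st_one (by linarith), sub_self]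
    · exact le_trans (min_le_right _ _) (by linarith)
  · have h1 : ∀ θ, -(5 * Real.pi / 8) ≤ θ → v 4 θ = 0 := by
      intro θ h
      change 1 - st (-(3 * Real.pi / 4)) θ = 0
      rw [st_one (by linarith), sub_self]
    refine closure_minimal (fun θ hθ => ?_) isClosed_Icc
    have h3 : u θ ≠ 0 := fun h => hθ (by simp [h])
    have h5 := hK (subset_tsupport _ h3)
    refine ⟨h5.1, ?_⟩
    by_contra hc
    exact hθ (by
      change u θ * v 4 θ = 0
      rw [h1 θ (by linarith), mul_zero])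

end Vale.Agent.P159.T1.D.H612
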