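import Vale.Agent.P159.T1.D.H770.RingDefs
import Vale.Agent.P159.T1.D.H612.PolECore

/-!
POL.E: the decomposition of the angular profile.
-/

namespace Vale.Agent.P159.T1.D.H612

theorem stmtPolE : StmtPolE := fun u hu hs => polE u hu hs

end Vale.Agent.P159.T1.D.H612
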